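import Vale.Agent.P025.H641.Norm

/-! # The arithmetic core: no point has the pattern of `t` at the scale of `t` -/

namespace P025H704

open P025H641

universe u v

section

variable {k : Type u} [NontriviallyNormedField k] [IsUltrametricDist k] [ProperSpace k] {p : ℕ}
  [Fact p.Prime]

omit [ProperSpace k] in
lemma norm_sub_eq_of_lt {x y : k} (h : ‖y‖ < ‖x‖) : ‖x - y‖ = ‖x‖ := by
  have h1 : ‖x‖ ≠ ‖-y‖ := by rw [norm_neg]; exact h.ne'
  rw [sub_eq_add_neg, IsUltrametricDist.norm_add_eq_max_of_norm_ne_norm h1, norm_neg,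
    max_eq_left h.le]

omit [Fact p.Prime] in
/-- the inverse of a uniformizer is not the value of a `p`-th power -/
lemma no_root (hp : 1 < p) (e : k) (h : ‖e ^ p‖ = ‖unif k‖⁻¹) : False := by
  have he : e ≠ 0 := by
    rintro rfl
    rw [zero_pow (by omega), norm_zero] at h
    exact (inv_pos.2 (unif_pos (k := k))).ne h
  obtain ⟨n, hn⟩ := exists_zpow e he
  rw [norm_pow, hn, ← zpow_natCast, ← zpow_mul, ← zpow_neg_one] at h
  have h1 := zpow_inj' h
  have h2 : (p : ℤ) ∣ 1 := ⟨-n, by linear_combination h1⟩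
  have h3 := Int.le_of_dvd one_pos h2
  omega

theorem core (hpn : ‖(p : k)‖ = (p : ℝ)⁻¹) {M : Type v} [Field M] [Algebra k M]
    (O : ValuationSubring M) (hconst : ∀ c : k, algebraMap k M c ∈ O ↔ ‖c‖ ≤ 1) (t : M)
    (hnear : ∀ x : k, O.valuation (algebraMap k M x) ≤ O.valuation (t - algebraMap k M x))
    (hlo : 1 ≤ O.valuation t) (hhi : O.valuation ((p : M) * t) ≤ 1) (A₀ : Finset k)
    (hdense : ∀ x : k, ‖x‖ ≤ (p : ℝ) ^ 5 → ∃ a ∈ A₀, ‖x - a‖ < ((p : ℝ) ^ 5)⁻¹) (z : k)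
    (hkey : ∀ a ∈ A₀, ∀ a' ∈ A₀, ∀ c : k, c ≠ 0 →
      O.valuation (algebraMap k M c * (t - algebraMap k M a) / (t - algebraMap k M a') - 1) ≤
        O.valuation (p : M) ^ 2 → ∃ e : k, c * (z - a) / (z - a') = e ^ p) : False := by
  have hpp : p.Prime := Fact.out
  have hq : (1 : ℝ) < p := by exact_mod_cast hpp.one_lt
  have hq0 : (0 : ℝ) < p := by linarith
  have hpk1 : ‖(p : k)‖ < 1 := by
    rw [hpn]
    exact inv_lt_one_of_one_lt₀ hq
  have hp0 : (p : k) ≠ 0 := by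
    rw [← norm_pos_iff, hpn]
    exact inv_pos.2 hq0
  have hπ0 : (0 : ℝ) < ‖unif k‖ := unif_pos
  have hπ1 : ‖unif k‖ < 1 := unif_lt
  have hπp : (p : ℝ)⁻¹ ≤ ‖unif k‖ := by
    rw [← hpn]
    exact unif_max _ hpk1
  have hπ : unif k ≠ 0 := unif_ne
  -- values of constants
  have hv : ∀ c d : k, O.valuation (algebraMap k M c) ≤ O.valuation (algebraMap k M d) ↔
      ‖c‖ ≤ ‖d‖ := by
    intro c d
    by_cases hd : d = 0
    · subst hd
      rw [map_zero, map_zero, norm_zero, le_zero_iff, O.valuation.zero_iff,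
        map_eq_zero_iff _ (algebraMap k M).injective, norm_le_zero_iff]
    · have hd' : algebraMap k M d ≠ 0 := (map_ne_zero _).2 hd
      have h1 := hconst (c / d)
      rw [map_div₀, ← ValuationSubring.valuation_le_one_iff, map_div₀, norm_div,
        div_le_one₀ (norm_pos_iff.2 hd),
        div_le_one₀ (zero_lt_iff.2 ((O.valuation.ne_zero_iff).2 hd'))] at h1
      exact h1
  have hpM : algebraMap k M (p : k) = (p : M) := map_natCast _ p
  have ht : ∀ x : k, O.valuation t ≤ O.valuation (t - algebraMap k M x) := by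
    intro x
    have h1 := O.valuation.map_add (t - algebraMap k M x) (algebraMap k M x)
    rw [sub_add_cancel] at h1
    exact h1.trans (max_le le_rfl (hnear x))
  have ht1 : ∀ x : k, t - algebraMap k M x ≠ 0 := by
    intro x h0
    have h1 := hlo.trans (ht x)
    rw [h0, map_zero] at h1
    exact absurd h1 (not_le.2 zero_lt_one)
  have h52 : ((p : ℝ) ^ 5)⁻¹ < ((p : ℝ) ^ 3)⁻¹ :=
    inv_strictAnti₀ (by positivity) (pow_lt_pow_right₀ hq (by norm_num))
  have h32 : ((p : ℝ) ^ 3)⁻¹ < ((p : ℝ) ^ 2)⁻¹ :=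
    inv_strictAnti₀ (by positivity) (pow_lt_pow_right₀ hq (by norm_num))
  have h21 : ((p : ℝ) ^ 2)⁻¹ < 1 := inv_lt_one_of_one_lt₀ (one_lt_pow₀ hq (by norm_num))
  have hq45 : (p : ℝ) ^ 4 ≤ (p : ℝ) ^ 5 := pow_le_pow_right₀ hq.le (by norm_num)
  have hq34 : (p : ℝ) ^ 3 ≤ (p : ℝ) ^ 4 := pow_le_pow_right₀ hq.le (by norm_num)
  have hq1 : ∀ n : ℕ, (1 : ℝ) ≤ (p : ℝ) ^ n := fun n => one_le_pow₀ hq.le
  have hnp : ∀ n : ℕ, ‖(p : k) ^ n‖ = ((p : ℝ) ^ n)⁻¹ := by
    intro n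
    rw [norm_pow, hpn, inv_pow]
  have h3π : ((p : ℝ) ^ 3)⁻¹ ≤ ((p : ℝ) ^ 2)⁻¹ * ‖unif k‖ := by
    have : ((p : ℝ) ^ 3)⁻¹ = ((p : ℝ) ^ 2)⁻¹ * (p : ℝ)⁻¹ := by
      rw [← mul_inv, ← pow_succ]
    rw [this]
    gcongr
  have h2π : ((p : ℝ) ^ 2)⁻¹ * ‖unif k‖ ≤ ((p : ℝ) ^ 2)⁻¹ := by
    calc ((p : ℝ) ^ 2)⁻¹ * ‖unif k‖ ≤ ((p : ℝ) ^ 2)⁻¹ * 1 := by gcongr
      _ = _ := mul_one _
  rcases le_or_gt ‖z‖ ((p : ℝ) ^ 4) with hz | hz
  · -- the near case
    have hx : ‖z + (p : k) ^ 2‖ ≤ (p : ℝ) ^ 5 := by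
      refine (norm_add_le_max' _ _).trans (max_le (hz.trans hq45) ?_)
      rw [hnp]
      exact h21.le.trans (hq1 5)
    have hx' : ‖z + (p : k) ^ 2 * unif k‖ ≤ (p : ℝ) ^ 5 := by
      refine (norm_add_le_max' _ _).trans (max_le (hz.trans hq45) ?_)
      rw [norm_mul, hnp]
      exact h2π.trans (h21.le.trans (hq1 5))
    obtain ⟨a, ha, hax⟩ := hdense _ hx
    obtain ⟨a', ha', hax'⟩ := hdense _ hx'
    have hza : ‖z - a‖ = ((p : ℝ) ^ 2)⁻¹ := by
      have h1 : z - a = -((p : k) ^ 2 - (z + (p : k) ^ 2 - a)) := by ring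
      rw [h1, norm_neg, norm_sub_eq_of_lt, hnp]
      rw [hnp]
      exact hax.trans (h52.trans h32)
    have hza' : ‖z - a'‖ = ((p : ℝ) ^ 2)⁻¹ * ‖unif k‖ := by
      have h1 : z - a' = -((p : k) ^ 2 * unif k - (z + (p : k) ^ 2 * unif k - a')) := by ring
      rw [h1, norm_neg, norm_sub_eq_of_lt, norm_mul, hnp]
      rw [norm_mul, hnp]
      exact hax'.trans (h52.trans_le h3π)
    have hza0 : z - a' ≠ 0 := by
      rw [← norm_pos_iff, hza']
      positivity
    obtain ⟨e, he⟩ := hkey a ha a' ha' 1 one_ne_zero (by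
      have h1 : algebraMap k M 1 * (t - algebraMap k M a) / (t - algebraMap k M a') - 1 =
          algebraMap k M (a' - a) / (t - algebraMap k M a') := by
        rw [map_one, one_mul, div_sub_one (ht1 a'), map_sub]
        congr 1
        ring
      rw [h1, map_div₀]
      have h2 : O.valuation (algebraMap k M (a' - a)) ≤ O.valuation (p : M) ^ 2 := by
        rw [← hpM, ← map_pow, ← map_pow, hv, hnp]
        have h3 : a' - a = (z - a) - (z - a') := by ring
        rw [h3]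
        refine (norm_sub_le_max _ _).trans (max_le hza.le ?_)
        rw [hza']
        exact h2π
      have h3 := hlo.trans (ht a')
      rw [div_le_iff₀ (zero_lt_one.trans_le h3)]
      calc O.valuation (algebraMap k M (a' - a)) ≤ O.valuation (p : M) ^ 2 * 1 := by
            rw [mul_one]; exact h2
        _ ≤ _ := mul_le_mul' le_rfl h3)
    refine no_root (k := k) hpp.one_lt e ?_
    rw [← he, one_mul, norm_div, hza, hza']
    have h2 : ((p : ℝ) ^ 2)⁻¹ ≠ 0 := by positivity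
    field_simp
  · -- the far case
    have hnx : ‖((p : k) ^ 3)⁻¹‖ = (p : ℝ) ^ 3 := by rw [norm_inv, hnp, inv_inv]
    have hnx' : ‖((p : k) ^ 3 * unif k)⁻¹‖ = (p : ℝ) ^ 3 * ‖unif k‖⁻¹ := by
      rw [norm_inv, norm_mul, hnp, mul_inv, inv_inv]
    have hπinv : ‖unif k‖⁻¹ ≤ p := by
      rw [← inv_inv (p : ℝ)]
      exact inv_anti₀ (inv_pos.2 hq0) hπp
    have hπinv1 : 1 ≤ ‖unif k‖⁻¹ := (one_le_inv₀ hπ0).2 hπ1.le
    have hx4 : (p : ℝ) ^ 3 * ‖unif k‖⁻¹ ≤ (p : ℝ) ^ 4 := by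
      rw [pow_succ (p : ℝ) 3]
      gcongr
    have hx3 : (p : ℝ) ^ 3 ≤ (p : ℝ) ^ 3 * ‖unif k‖⁻¹ := by
      calc (p : ℝ) ^ 3 = (p : ℝ) ^ 3 * 1 := (mul_one _).symm
        _ ≤ _ := by gcongr
    obtain ⟨a, ha, hax⟩ := hdense ((p : k) ^ 3)⁻¹ (by rw [hnx]; exact hq34.trans hq45)
    obtain ⟨a', ha', hax'⟩ := hdense ((p : k) ^ 3 * unif k)⁻¹ (by rw [hnx']; exact hx4.trans hq45)
    have h51 : ((p : ℝ) ^ 5)⁻¹ < (p : ℝ) ^ 3 := (h52.trans (h32.trans h21)).trans_le (hq1 3)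
    have hna : ‖a‖ = (p : ℝ) ^ 3 := by
      have h1 : a = ((p : k) ^ 3)⁻¹ - (((p : k) ^ 3)⁻¹ - a) := by ring
      rw [h1, norm_sub_eq_of_lt, hnx]
      rw [hnx]
      exact hax.trans h51
    have hna' : ‖a'‖ = (p : ℝ) ^ 3 * ‖unif k‖⁻¹ := by
      have h1 : a' = ((p : k) ^ 3 * unif k)⁻¹ - (((p : k) ^ 3 * unif k)⁻¹ - a') := by ring
      rw [h1, norm_sub_eq_of_lt, hnx']
      rw [hnx']
      exact hax'.trans (h51.trans_le hx3)
    have ha0 : a ≠ 0 := by
      rw [← norm_pos_iff, hna]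
      positivity
    have ha0' : a' ≠ 0 := by
      rw [← norm_pos_iff, hna']
      positivity
    have hza : ‖z - a‖ = ‖z‖ := norm_sub_eq_of_lt (by rw [hna]; exact hq34.trans_lt hz)
    have hza' : ‖z - a'‖ = ‖z‖ := norm_sub_eq_of_lt (by rw [hna']; exact hx4.trans_lt hz)
    have hz0 : ‖z‖ ≠ 0 := ((by positivity : (0 : ℝ) < (p : ℝ) ^ 4).trans hz).ne'
    obtain ⟨e, he⟩ := hkey a ha a' ha' (a' / a) (div_ne_zero ha0' ha0) (by
      have haM : algebraMap k M a ≠ 0 := (map_ne_zero _).2 ha0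
      have h1 : algebraMap k M (a' / a) * (t - algebraMap k M a) / (t - algebraMap k M a') - 1 =
          (algebraMap k M (a' - a) / (t - algebraMap k M a')) * (t / algebraMap k M a) := by
        rw [map_div₀, map_sub]
        have := ht1 a'
        field_simp
        ring
      rw [h1, map_mul]
      have h2 : O.valuation (algebraMap k M (a' - a) / (t - algebraMap k M a')) ≤ 1 := by
        rw [map_div₀]
        refine (div_le_one₀ (zero_lt_iff.2 ((O.valuation.ne_zero_iff).2 (ht1 a')))).2 ?_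
        refine le_trans ?_ (hnear a')
        rw [hv]
        refine (norm_sub_le_max _ _).trans (max_le le_rfl ?_)
        rw [hna, hna']
        exact hx3
      have h3 : O.valuation (t / algebraMap k M a) ≤ O.valuation (p : M) ^ 2 := by
        rw [map_div₀]
        refine (div_le_iff₀ (zero_lt_iff.2 ((O.valuation.ne_zero_iff).2 haM))).2 ?_
        have hpM0 : (p : M) ≠ 0 := by rw [← hpM]; exact (map_ne_zero _).2 hp0
        have h4 : O.valuation t ≤ O.valuation (algebraMap k M (p : k)⁻¹) := by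
          rw [map_inv₀, hpM, map_inv₀, ← one_div,
            le_div_iff₀ (zero_lt_iff.2 ((O.valuation.ne_zero_iff).2 hpM0)), mul_comm, ← map_mul]
          exact hhi
        refine h4.trans ?_
        rw [← hpM, ← map_pow, ← map_pow, ← map_mul, ← map_mul, hv, norm_inv, hpn, inv_inv, norm_mul,
          hnp, hna]
        have h5 : ((p : ℝ) ^ 2)⁻¹ * (p : ℝ) ^ 3 = p := by field_simp
        rw [h5]
      calc _ ≤ 1 * O.valuation (p : M) ^ 2 := mul_le_mul' h2 h3
        _ = _ := one_mul _)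
    refine no_root (k := k) hpp.one_lt e ?_
    rw [← he, norm_div, norm_mul, hza, hza', norm_div, hna, hna']
    field_simp

end

end P025H704
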