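import Mathlib

/-! # Elements close to one which are `p`-th powers -/

namespace P025H704

universe u

section val

variable {M : Type u} [Field M] {Γ : Type*} [LinearOrderedCommGroupWithZero Γ] (v : Valuation M Γ)
  {p : ℕ}

lemma val_root_unity (hp : 0 < p) {ζ : M} (h : ζ ^ p = 1) : v ζ = 1 := by
  have h1 : v ζ ^ p = 1 := by rw [← map_pow, h, map_one]
  exact (pow_eq_one_iff_of_nonneg zero_le hp.ne').1 h1

lemma val_sub_pow_le (hp : 0 < p) {ζ : M} (h : ζ ^ p = 1) (j : ℕ) :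
    v (1 - ζ ^ j) ≤ v (1 - ζ) := by
  have h0 := val_root_unity v hp h
  have h1 : (∑ i ∈ Finset.range j, ζ ^ i) * (1 - ζ) = 1 - ζ ^ j := geom_sum_mul_neg ζ j
  rw [← h1, map_mul]
  refine mul_le_of_le_one_left' ?_
  refine v.map_sum_le (fun i _ => ?_)
  rw [map_pow, h0, one_pow]

/-- all differences of `p`-th roots of unity have the same value -/
lemma val_sub_root (hp : p.Prime) {ζ : M} (h : IsPrimitiveRoot ζ p) {η : M} (hη : η ^ p = 1)
    (hη1 : η ≠ 1) : v (1 - η) = v (1 - ζ) := by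
  have : NeZero p := ⟨hp.ne_zero⟩
  have : Fact p.Prime := ⟨hp⟩
  obtain ⟨i, -, hi⟩ := h.eq_pow_of_pow_eq_one hη
  have hη' : IsPrimitiveRoot η p := by
    rw [IsPrimitiveRoot.iff_orderOf]
    exact orderOf_eq_prime hη hη1
  obtain ⟨j, -, hj⟩ := hη'.eq_pow_of_pow_eq_one h.pow_eq_one
  apply le_antisymm
  · rw [← hi]; exact val_sub_pow_le v hp.pos h.pow_eq_one i
  · rw [← hj]; exact val_sub_pow_le v hp.pos hη j

lemma val_p (hp : p.Prime) {ζ : M} (h : IsPrimitiveRoot ζ p) :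
    v (p : M) = v (1 - ζ) ^ (p - 1) := by
  obtain ⟨n, rfl⟩ : ∃ n, p = n + 1 := ⟨p - 1, by have := hp.pos; omega⟩
  have h1 := IsPrimitiveRoot.prod_one_sub_pow_eq_order h
  have h2 : ((n + 1 : ℕ) : M) = n + 1 := by push_cast; ring
  rw [h2, ← h1, map_prod, Nat.add_sub_cancel]
  rw [Finset.prod_congr rfl (fun k hk => ?_), Finset.prod_const, Finset.card_range]
  refine val_sub_root v hp h ?_ ?_
  · rw [← pow_mul, mul_comm, pow_mul, h.pow_eq_one, one_pow]
  · intro h3
    have h4 := h.pow_eq_one_iff_dvd (k + 1) |>.1 h3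
    have h5 := Nat.le_of_dvd (by omega) h4
    have h6 := Finset.mem_range.1 hk
    omega

lemma val_one_sub_lt (hp : p.Prime) {ζ : M} (h : IsPrimitiveRoot ζ p) (h1 : v (p : M) < 1) :
    v (1 - ζ) < 1 := by
  rw [val_p v hp h] at h1
  by_contra h2
  push Not at h2
  exact absurd (one_le_pow₀ h2 (n := p - 1)) (not_le.2 h1)

/-- a `p`-th power at distance at most `v p ^ 2` from one has a `p`-th root near one -/
lemma exists_near_root (hp : p.Prime) (hp2 : p ≠ 2) {ζ : M} (h : IsPrimitiveRoot ζ p)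
    (h1 : v (p : M) < 1) (w x : M) (hw : w = x ^ p) (hv : v (w - 1) ≤ v (p : M) ^ 2) :
    ∃ η : M, η ^ p = w ∧ v (1 - η) < v (1 - ζ) := by
  have hζ1 : v (1 - ζ) < 1 := val_one_sub_lt v hp h h1
  have h1ζ : (1 : M) - ζ ≠ 0 := by
    intro h0
    exact h.ne_one hp.one_lt (sub_eq_zero.1 h0).symm
  have hζ0 : 0 < v (1 - ζ) := zero_lt_iff.2 ((v.ne_zero_iff).2 h1ζ)
  have h2 := h.pow_sub_pow_eq_prod_sub_mul 1 x hp.pos
  rw [one_pow, ← hw] at h2
  by_contra hcon
  push Not at hcon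
  have h3 : ∀ η ∈ Polynomial.nthRootsFinset p (1 : M), v (1 - ζ) ≤ v (1 - η * x) := by
    intro η hη
    rw [Polynomial.mem_nthRootsFinset hp.pos] at hη
    refine hcon (η * x) ?_
    rw [mul_pow, hη, one_mul, hw]
  have h4 : v (1 - ζ) ^ p ≤ v (w - 1) := by
    rw [Valuation.map_sub_swap v w 1, h2, map_prod]
    calc v (1 - ζ) ^ p = ∏ _η ∈ Polynomial.nthRootsFinset p (1 : M), v (1 - ζ) := by
          rw [Finset.prod_const, h.card_nthRootsFinset]
      _ ≤ _ := Finset.prod_le_prod' h3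
  have h5 := h4.trans hv
  rw [val_p v hp h, ← pow_mul] at h5
  have hp3 : 3 ≤ p := by
    have := hp.two_le
    omega
  have h6 : v (1 - ζ) ^ ((p - 1) * 2) < v (1 - ζ) ^ p :=
    pow_lt_pow_right_of_lt_one₀ hζ0 hζ1 (by omega)
  exact absurd h5 (not_le.2 h6)

lemma near_root_unique (hp : p.Prime) {ζ : M} (h : IsPrimitiveRoot ζ p)
    (h1 : v (p : M) < 1) (x y : M) (hxy : x ^ p = y ^ p) (hx : v (1 - x) < v (1 - ζ))
    (hy : v (1 - y) < v (1 - ζ)) : x = y := by
  have hζ1 : v (1 - ζ) < 1 := val_one_sub_lt v hp h h1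
  have hy1 : v y = 1 := by
    have h2 : v (1 - (1 - y)) = 1 := by
      have h3 : v (-(1 - y)) < v 1 := by rw [Valuation.map_neg, map_one]; exact hy.trans hζ1
      rw [sub_eq_add_neg, Valuation.map_add_eq_of_lt_left v h3, map_one]
    rwa [sub_sub_cancel] at h2
  have hy0 : y ≠ 0 := by
    rintro rfl
    rw [map_zero] at hy1
    exact zero_ne_one hy1
  by_contra hne
  have h2 : (x / y) ^ p = 1 := by
    rw [div_pow, hxy, div_self (pow_ne_zero p hy0)]
  have h3 : x / y ≠ 1 := by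
    intro h4
    rw [div_eq_one_iff_eq hy0] at h4
    exact hne h4
  have h4 := val_sub_root v hp h h2 h3
  have h5 : v (y - x) = v (1 - ζ) := by
    have h6 : y - x = y * (1 - x / y) := by field_simp
    rw [h6, map_mul, hy1, one_mul, h4]
  have h6 : v (y - x) ≤ max (v (1 - x)) (v (1 - y)) := by
    have h7 : y - x = (1 - x) - (1 - y) := by ring
    rw [h7]
    exact v.map_sub _ _
  rw [h5] at h6
  exact absurd h6 (not_le.2 (max_lt hx hy))

end val

/-- automorphisms preserving a valuation ring preserve the order of the values -/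
lemma val_le_of_stable {M : Type u} [Field M] (O : ValuationSubring M) (φ : M →+* M)
    (hφ : ∀ x ∈ O, φ x ∈ O) {x y : M} (h : O.valuation x ≤ O.valuation y) :
    O.valuation (φ x) ≤ O.valuation (φ y) := by
  rw [ValuationSubring.valuation_le_iff] at h ⊢
  obtain ⟨a, ha⟩ := h
  exact ⟨⟨φ a, hφ a a.2⟩, by rw [← ha, map_mul]⟩

end P025H704
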