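import Vale.Agent.P025.R2.H440.Defs
import Vale.Agent.P025.R2.H704.Near1
import Vale.Agent.P025.R2.H704.Core

/-! # Dense full cusps at the scale of `t` are impossible -/

open IntermediateField Polynomial

namespace P025H704

open P025H641 P025H440

universe u v w

section key

variable {p : ℕ} [Fact p.Prime] {k : Type u} {K : Type v} [Field k] [Field K] [Algebra k K]
  [CharZero k] {s : Gal(constClosure k K/k) →* Gal(maxUnr k K/K)}
  {G : Subgroup Gal(constClosure k K/k)} {k' : Type w} [Field k'] [Algebra k' (maxUnr k K)]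

/-- an element fixed by the section which is a `p`-th power and near one is a `p`-th power of an
element fixed by the section -/
theorem exists_fixed_root (hp2 : p ≠ 2) {ζ : maxUnr k K} (hζ : IsPrimitiveRoot ζ p)
    (hζG : ∀ σ ∈ G, s σ ζ = ζ) (O : ValuationSubring (maxUnr k K))
    (hst : ∀ σ ∈ G, ∀ x ∈ O, s σ x ∈ O) (hp1 : O.valuation (p : maxUnr k K) < 1)
    (w x : maxUnr k K) (hw : w = x ^ p) (hwG : ∀ σ ∈ G, s σ w = w)
    (hv : O.valuation (w - 1) ≤ O.valuation (p : maxUnr k K) ^ 2) :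
    ∃ η : maxUnr k K, η ^ p = w ∧ ∀ σ ∈ G, s σ η = η := by
  have hpp : p.Prime := Fact.out
  obtain ⟨η, hη, hη1⟩ := exists_near_root O.valuation hpp hp2 hζ hp1 w x hw hv
  refine ⟨η, hη, fun σ hσ => ?_⟩
  refine near_root_unique O.valuation hpp hζ hp1 _ _ ?_ ?_ hη1
  · rw [← map_pow, hη, hwG σ hσ]
  · by_contra hcon
    push Not at hcon
    have h1 := val_le_of_stable O ((s σ⁻¹ : Gal(maxUnr k K/K)) : maxUnr k K →+* maxUnr k K)
      (hst σ⁻¹ (G.inv_mem hσ)) hcon
    have h2 : ∀ y, ((s σ⁻¹ : Gal(maxUnr k K/K)) : maxUnr k K →+* maxUnr k K) (s σ y) = y := by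
      intro y
      show (s σ⁻¹) (s σ y) = y
      rw [← AlgEquiv.mul_apply, ← map_mul, inv_mul_cancel, map_one, AlgEquiv.one_apply]
    have h3 : ((s σ⁻¹ : Gal(maxUnr k K/K)) : maxUnr k K →+* maxUnr k K) ζ = ζ :=
      hζG _ (G.inv_mem hσ)
    have h4 : ((s σ⁻¹ : Gal(maxUnr k K/K)) : maxUnr k K →+* maxUnr k K) (1 - ζ) = 1 - ζ := by
      rw [_root_.map_sub, map_one, h3]
    have h5 : ((s σ⁻¹ : Gal(maxUnr k K/K)) : maxUnr k K →+* maxUnr k K) (1 - s σ η) = 1 - η := by
      rw [_root_.map_sub, map_one, h2]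
    rw [h4, h5] at h1
    exact absurd hη1 (not_lt.2 h1)

/-- comparison of the classes attached to two divisible elements of small relative distance -/
theorem class_rel (B : Base s G k') (hp2 : p ≠ 2) {ζ : k'} (hζ : IsPrimitiveRoot ζ p)
    (O : ValuationSubring (maxUnr k K)) (hst : ∀ σ ∈ G, ∀ x ∈ O, s σ x ∈ O)
    (hp1 : O.valuation (p : maxUnr k K) < 1) (f f' : maxUnr k K) (x x' c : k')
    (hf : Has s G p f x) (hf' : Has s G p f' x') (hc : c ≠ 0)
    (hv : O.valuation (algebraMap k' (maxUnr k K) c * f / f' - 1) ≤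
      O.valuation (p : maxUnr k K) ^ 2) : ∃ e : k', c * x / x' = e ^ p := by
  have hpp : p.Prime := Fact.out
  obtain ⟨hx, y, hy, hyG, h1⟩ := hf
  obtain ⟨hx', y', hy', hyG', h2⟩ := hf'
  have hw : algebraMap k' (maxUnr k K) c * f / f' =
      algebraMap k' (maxUnr k K) (c * x / x') * (y / y') ^ p := by
    rw [h1, h2, map_div₀, map_mul, div_pow]
    have : algebraMap k' (maxUnr k K) x' ≠ 0 := (_root_.map_ne_zero _).2 hx'
    field_simp
  -- a `p`-th root of the constant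
  obtain ⟨g, hg⟩ := IsAlgClosed.exists_pow_nat_eq
    ((algebraMap k' (maxUnr k K) (c * x / x') : maxUnr k K) : AlgebraicClosure K) hpp.pos
  have hgint : IsIntegral k g := by
    apply isIntegral_of_pow' hpp.pos
    rw [hg]
    exact isIntegral_coe.2 (B.alg _)
  set γ : maxUnr k K := ⟨g, mem_maxUnr_of_const _ hgint⟩ with hγ
  have hγp : γ ^ p = algebraMap k' (maxUnr k K) (c * x / x') := Subtype.ext hg
  obtain ⟨η, hη, hηG⟩ := exists_fixed_root (s := s) (G := G) hp2
    (hζ.map_of_injective (algebraMap k' (maxUnr k K)).injective) (B.fix ζ) O hst hp1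
    (algebraMap k' (maxUnr k K) c * f / f') (γ * (y / y')) (by rw [hw, mul_pow, hγp])
    (by
      intro σ hσ
      have hc' := B.fix (c * x / x') σ hσ
      have hy'' : s σ (y / y') = y / y' := by rw [map_div₀, hyG σ hσ, hyG' σ hσ]
      rw [hw, _root_.map_mul, map_pow, hc', hy'']) hv
  have hyy : y / y' ≠ 0 := div_ne_zero hy hy'
  have h3 : (η / (y / y')) ^ p = algebraMap k' (maxUnr k K) (c * x / x') := by
    rw [div_pow, hη, hw, mul_div_assoc, div_self (pow_ne_zero p hyy), mul_one]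
  obtain ⟨e, he⟩ := B.ex (η / (y / y')) (isIntegral_of_pow' hpp.pos (by rw [h3]; exact B.alg _))
    (by
      intro σ hσ
      rw [map_div₀, map_div₀, hηG σ hσ, hyG σ hσ, hyG' σ hσ])
  refine ⟨e, ?_⟩
  apply (algebraMap k' (maxUnr k K)).injective
  rw [← h3, map_pow, he]

end key

/-- maximal separated subsets -/
lemma exists_sep {α : Type*} (A : Finset α) (d : α → α → ℝ) (hd0 : ∀ a, d a a = 0)
    (hds : ∀ a b, d a b = d b a) {ρ : ℝ} (hρ : 0 < ρ) :
    ∃ A₀ ⊆ A, (∀ a ∈ A₀, ∀ b ∈ A₀, a ≠ b → ρ ≤ d a b) ∧ ∀ a ∈ A, ∃ b ∈ A₀, d a b < ρ := by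
  classical
  let S : Finset (Finset α) := A.powerset.filter
    (fun B => ∀ a ∈ B, ∀ b ∈ B, a ≠ b → ρ ≤ d a b)
  obtain ⟨A₀, hA₀, hmax⟩ := Finset.exists_max_image S Finset.card ⟨∅, by simp [S]⟩
  have hA₁ : A₀ ⊆ A ∧ ∀ a ∈ A₀, ∀ b ∈ A₀, a ≠ b → ρ ≤ d a b := by
    simpa [S] using hA₀
  refine ⟨A₀, hA₁.1, hA₁.2, fun a ha => ?_⟩
  by_contra hcon
  push Not at hcon
  have haA : a ∉ A₀ := by
    intro h
    have := hcon a h
    rw [hd0] at this
    exact absurd this (not_le.2 hρ)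
  have h1 : insert a A₀ ∈ S := by
    simp only [S, Finset.mem_filter, Finset.mem_powerset]
    refine ⟨Finset.insert_subset ha hA₁.1, ?_⟩
    intro b hb c hc hbc
    rcases Finset.mem_insert.1 hb with rfl | hb
    · rcases Finset.mem_insert.1 hc with rfl | hc
      · exact absurd rfl hbc
      · exact hcon c hc
    · rcases Finset.mem_insert.1 hc with rfl | hc
      · rw [hds]; exact hcon b (by assumption)
      · exact hA₁.2 b hb c hc hbc
  have h2 := hmax _ h1
  rw [Finset.card_insert_of_notMem haA] at h2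
  omega

/-- if `0` is a nearest constant of `t` and `t` has full cusps near all points of a big disc,
of radius larger than `v t`, we get a contradiction -/
theorem end_contra {p : ℕ} [Fact p.Prime] {k : Type u} {K : Type v} [Field k] [Field K]
    [Algebra k K] [CharZero k] {s : Gal(constClosure k K/k) →* Gal(maxUnr k K/K)}
    {G : Subgroup Gal(constClosure k K/k)} {k' : Type w} [Field k'] [Algebra k' (maxUnr k K)]
    [Algebra ℚ_[p] k'] [FiniteDimensional ℚ_[p] k'] {O : ValuationSubring (maxUnr k K)}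
    (h : Ctx p s G k' O) (hp2 : p ≠ 2) {ζ : k'} (hζ : IsPrimitiveRoot ζ p) {m : ℕ} (hm : 0 < m)
    (hpm : p ∣ m) (t : maxUnr k K) (hfix : ∀ σ ∈ G, s σ t = t)
    (hconst : ∀ c : k', t ≠ algebraMap k' (maxUnr k K) c)
    (hnear : ∀ x : k', O.valuation (algebraMap k' (maxUnr k K) x) ≤
      O.valuation (t - algebraMap k' (maxUnr k K) x))
    (hlo : 1 ≤ O.valuation t) (hhi : O.valuation ((p : maxUnr k K) * t) ≤ 1)
    (A : Finset k') (hA : ∀ a ∈ A, a ∈ Cusp k' m t)
    (hdense : ∀ x : k', spectralNorm ℚ_[p] k' x ≤ (p : ℝ) ^ 7 → ∃ a ∈ A,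
      spectralNorm ℚ_[p] k' (x - a) ≤ ((p : ℝ) ^ precision (Module.finrank ℚ_[p] k') 5)⁻¹) :
    False := by
  classical
  let inst1 : NontriviallyNormedField k' := spectralNorm.nontriviallyNormedField ℚ_[p] k'
  have hu : IsUltrametricDist k' :=
    IsUltrametricDist.isUltrametricDist_of_isNonarchimedean_norm isNonarchimedean_spectralNorm
  have hn : ∀ x : ℚ_[p], ‖algebraMap ℚ_[p] k' x‖ = ‖x‖ := fun x => spectralNorm_extends x
  have hproper : ProperSpace k' := by
    let _ : NormedAlgebra ℚ_[p] k' := spectralNorm.normedAlgebra ℚ_[p] k'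
    exact FiniteDimensional.proper ℚ_[p] k'
  have hpp : p.Prime := Fact.out
  have hq : (1 : ℝ) < p := by exact_mod_cast hpp.one_lt
  have hq0 : (0 : ℝ) < p := by linarith
  have hpn : ‖(p : k')‖ = (p : ℝ)⁻¹ := by
    rw [← map_natCast (algebraMap ℚ_[p] k'), hn, Padic.norm_p]
  have hpM : algebraMap k' (maxUnr k K) (p : k') = (p : maxUnr k K) := map_natCast _ p
  have hp1 : O.valuation (p : maxUnr k K) < 1 := by
    have h1 : (p : maxUnr k K) ∈ O := by
      rw [← hpM, h.const]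
      show ‖(p : k')‖ ≤ 1
      rw [hpn]
      exact inv_le_one_of_one_le₀ hq.le
    have h2 : (p : maxUnr k K)⁻¹ ∉ O := by
      rw [← hpM, ← map_inv₀, h.const]
      show ¬ ‖(p : k')⁻¹‖ ≤ 1
      rw [norm_inv, hpn, inv_inv]
      exact not_le.2 hq
    refine lt_of_le_of_ne ((ValuationSubring.valuation_le_one_iff _ _).2 h1) (fun h3 => h2 ?_)
    rw [← ValuationSubring.valuation_le_one_iff, map_inv₀, h3, inv_one]
  -- the separated subset
  have hρ : (0 : ℝ) < ((p : ℝ) ^ 5)⁻¹ := by positivity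
  obtain ⟨A₀, hA₀, hsep, hmax⟩ := exists_sep (A.filter (fun a => ‖a‖ ≤ (p : ℝ) ^ 5))
    (fun a b => ‖a - b‖) (fun a => by rw [sub_self, norm_zero]) (fun a b => norm_sub_rev a b) hρ
  have hsub : ∀ a ∈ A₀, a ∈ A ∧ ‖a‖ ≤ (p : ℝ) ^ 5 := fun a ha =>
    Finset.mem_filter.1 (hA₀ ha)
  have hfine : IsFine p 5 A₀ A :=
    { subset := fun a ha => (hsub a ha).1
      bound := fun a ha => (hsub a ha).2
      sep := hsep
      dense := hdense }
  -- the field
  obtain ⟨F₁, hF₁, hc₁⟩ := h.fin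
  choose! g hg using hA
  obtain ⟨F₂, hF₂, hc₂⟩ := exists_finUnr_subset (k := k)
    (insert (t : AlgebraicClosure K) (A.image (fun a => (g a : AlgebraicClosure K)))) (by
      intro x hx
      rcases Finset.mem_insert.1 hx with rfl | hx
      · exact t.2
      · obtain ⟨a, -, rfl⟩ := Finset.mem_image.1 hx
        exact (g a).2)
  have hF := hF₁.sup hF₂
  have hkF : ∀ c : k', ((algebraMap k' (maxUnr k K) c : maxUnr k K) : AlgebraicClosure K) ∈
      F₁ ⊔ F₂ := fun c => (le_sup_left : F₁ ≤ F₁ ⊔ F₂) (hc₁ c)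
  have htF : (t : AlgebraicClosure K) ∈ F₁ ⊔ F₂ :=
    (le_sup_right : F₂ ≤ F₁ ⊔ F₂) (hc₂ _ (Finset.mem_insert_self _ _))
  have hgF : ∀ a ∈ A, (g a : AlgebraicClosure K) ∈ F₁ ⊔ F₂ := fun a ha =>
    (le_sup_right : F₂ ≤ F₁ ⊔ F₂) (hc₂ _ (Finset.mem_insert_of_mem
      (Finset.mem_image.2 ⟨a, ha, rfl⟩)))
  obtain ⟨l, rfl⟩ := hpm
  obtain ⟨z, hz⟩ := pattern_gen h.isSection h.base hζ hF hkF t htF hfix hconst hfine (by
    intro a ha V _
    refine ⟨(⟨_, hgF a ha⟩ : (F₁ ⊔ F₂ : IntermediateField K (AlgebraicClosure K))) ^ l, ?_⟩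
    rw [← map_pow, ← pow_mul, mul_comm l p]
    congr 1
    apply Subtype.ext
    have h1 := congrArg (fun z : maxUnr k K => (z : AlgebraicClosure K)) (hg a ha)
    exact h1.symm)
  refine core (k := k') (M := maxUnr k K) hpn O h.const t hnear hlo hhi A₀ ?_ z ?_
  · intro x hx
    obtain ⟨a, ha, hxa⟩ := hdense x (hx.trans (pow_le_pow_right₀ hq.le (by norm_num)))
    change ‖x - a‖ ≤ _ at hxa
    have h6 : ((p : ℝ) ^ precision (Module.finrank ℚ_[p] k') 5)⁻¹ < ((p : ℝ) ^ 5)⁻¹ := by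
      refine inv_strictAnti₀ (by positivity) (pow_lt_pow_right₀ hq ?_)
      rw [precision]
      omega
    have ha5 : ‖a‖ ≤ (p : ℝ) ^ 5 := by
      have h7 : a = x - (x - a) := by ring
      rw [h7]
      refine (norm_sub_le_max _ _).trans (max_le hx ?_)
      refine hxa.trans (h6.le.trans ?_)
      exact (inv_le_one_of_one_le₀ (one_le_pow₀ hq.le)).trans (one_le_pow₀ hq.le)
    obtain ⟨b, hb, hab⟩ := hmax a (Finset.mem_filter.2 ⟨ha, ha5⟩)
    refine ⟨b, hb, ?_⟩
    have h7 : x - b = (x - a) + (a - b) := by ring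
    rw [h7]
    exact (norm_add_le_max' _ _).trans_lt (max_lt (hxa.trans_lt h6) hab)
  · intro a ha a' ha' c hc hv
    obtain ⟨hza, x, hx, hxc⟩ := hz a ha
    obtain ⟨hza', x', hx', hxc'⟩ := hz a' ha'
    have hza0 : z - a ≠ 0 := sub_ne_zero.2 hza
    have hza0' : z - a' ≠ 0 := sub_ne_zero.2 hza'
    exact class_rel h.base hp2 hζ O h.stable hp1 _ _ _ _ c
      (hx.change hpp.pos hza0 h.base hxc) (hx'.change hpp.pos hza0' h.base hxc') hc hv

end P025H704
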